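import Vale.Agent.P061.Defs

namespace Vale.Agent.P061

open Classical

variable {V E : Type}

/-- The graph of a spanning tree is a tree. -/
theorem MultiGraph.IsSpanningTree.isTree [Fintype V] {G : MultiGraph V E} {T : Finset E}
    (hT : G.IsSpanningTree T) : (G.graphOf T).IsTree := by
  obtain ⟨hcard, hconn⟩ := hT
  rw [SimpleGraph.isTree_iff_connected_and_card]
  refine ⟨hconn, ?_⟩
  have h1 := hconn.card_vert_le_card_edgeSet_add_one
  -- the edge set is the image of `T`
  have h2 : Nat.card (G.graphOf T).edgeSet ≤ T.card := by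
    have hsub : (G.graphOf T).edgeSet ⊆ ((T.image G.ends : Finset (Sym2 V)) : Set (Sym2 V)) := by
      intro z hz
      induction z using Sym2.ind with
      | _ u v =>
        rw [SimpleGraph.mem_edgeSet] at hz
        obtain ⟨e, he, h⟩ := hz
        simp only [Finset.coe_image, Set.mem_image, Finset.mem_coe]
        exact ⟨e, he, h⟩
    calc Nat.card (G.graphOf T).edgeSet
        ≤ Nat.card ((T.image G.ends : Finset (Sym2 V)) : Set (Sym2 V)) :=
          Nat.card_mono (Finset.finite_toSet _) hsub
      _ = (T.image G.ends).card := by simp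
      _ ≤ T.card := Finset.card_image_le
  have h3 : Nat.card V = Fintype.card V := Nat.card_eq_fintype_card
  omega

/-- Every spanning tree on at least two vertices has a cut containing all its edges. -/
theorem MultiGraph.IsSpanningTree.exists_full_cut [Fintype V] {G : MultiGraph V E} {T : Finset E}
    (hT : G.IsSpanningTree T) (hV : 2 ≤ Fintype.card V) :
    ∃ S : Finset V, S.Nonempty ∧ S ≠ Finset.univ ∧ G.cutIn T S = T := by
  obtain ⟨c⟩ := hT.isTree.colorable_two
  have hcross : ∀ e ∈ T, G.Crosses (Finset.univ.filter (fun v => c v = 0)) e := by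
    intro e he
    obtain ⟨u, v, huv⟩ : ∃ u v, G.ends e = s(u, v) := by
      induction h : G.ends e using Sym2.ind with
      | _ u v => exact ⟨u, v, rfl⟩
    have hadj : (G.graphOf T).Adj u v := ⟨e, he, huv⟩
    have hne : c u ≠ c v := c.valid hadj
    by_cases hu : c u = 0
    · refine ⟨u, v, huv, by simp [hu], ?_⟩
      simp only [Finset.mem_filter, Finset.mem_univ, true_and]
      intro hv
      exact hne (hu.trans hv.symm)
    · refine ⟨v, u, by rw [huv, Sym2.eq_swap], ?_, by simp [hu]⟩
      simp only [Finset.mem_filter, Finset.mem_univ, true_and]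
      have h1 : c u = 1 := by omega
      have : c v ≠ 1 := fun h => hne (h1.trans h.symm)
      omega
  have hTne : T.Nonempty := by
    rw [← Finset.card_pos]
    have := hT.1
    omega
  obtain ⟨e, he⟩ := hTne
  obtain ⟨u, v, _, hu, hv⟩ := hcross e he
  refine ⟨Finset.univ.filter (fun v => c v = 0), ⟨u, hu⟩, ?_, ?_⟩
  · intro h
    exact hv (by rw [h]; exact Finset.mem_univ v)
  · unfold MultiGraph.cutIn
    exact Finset.filter_true_of_mem hcross

/-- General lower bound: an `α`-thin spanning tree forces `n - 1 ≤ α · |δ_G(S)|` for some cut. -/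
theorem MultiGraph.IsThin.exists_cut [Fintype V] [Fintype E] {G : MultiGraph V E} {T : Finset E}
    {α : ℝ} (hT : G.IsSpanningTree T) (hV : 2 ≤ Fintype.card V) (hα : G.IsThin T α) :
    ∃ S : Finset V, S.Nonempty ∧ S ≠ Finset.univ ∧
      ((Fintype.card V : ℝ) - 1) ≤ α * ((G.cut S).card : ℝ) := by
  obtain ⟨S, h1, h2, h3⟩ := hT.exists_full_cut hV
  refine ⟨S, h1, h2, ?_⟩
  have := hα S h1 h2
  rw [h3] at this
  have hc : (T.card : ℝ) = (Fintype.card V : ℝ) - 1 := by
    have := hT.1
    have h' : ((T.card + 1 : ℕ) : ℝ) = (Fintype.card V : ℝ) := by exact_mod_cast this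
    push_cast at h'
    linarith
  linarith

end Vale.Agent.P061
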