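import Vale.Agent.P061.Bipartition

namespace Vale.Agent.P061

open Classical

/-- The complete graph on `V`, as a multigraph with one edge copy per unordered pair. -/
def completeMG (V : Type) : MultiGraph V {z : Sym2 V // ¬ z.IsDiag} where
  ends := Subtype.val
  loopless := fun e => e.2

variable {V : Type} [Fintype V] [Fintype {z : Sym2 V // ¬ z.IsDiag}]

theorem card_cut_completeMG (S : Finset V) :
    ((completeMG V).cut S).card = S.card * (Fintype.card V - S.card) := by
  have h : ((completeMG V).cut S).card = (S ×ˢ Sᶜ).card := by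
    symm
    refine Finset.card_bij
      (fun p hp => (⟨s(p.1, p.2), by
        rw [Sym2.mk_isDiag_iff]
        rintro h
        rw [Finset.mem_product, Finset.mem_compl] at hp
        exact hp.2 (h ▸ hp.1)⟩ : {z : Sym2 V // ¬ z.IsDiag})) ?_ ?_ ?_
    · intro p hp
      rw [Finset.mem_product, Finset.mem_compl] at hp
      simp only [MultiGraph.cut, MultiGraph.cutIn, Finset.mem_filter, Finset.mem_univ, true_and]
      exact ⟨p.1, p.2, rfl, hp.1, hp.2⟩
    · intro p hp q hq hpq
      rw [Finset.mem_product, Finset.mem_compl] at hp hq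
      have h' : s(p.1, p.2) = s(q.1, q.2) := congrArg Subtype.val hpq
      rw [Sym2.eq_iff] at h'
      rcases h' with ⟨h1, h2⟩ | ⟨h1, h2⟩
      · exact Prod.ext h1 h2
      · exact absurd (h1 ▸ hp.1) hq.2
    · intro e he
      simp only [MultiGraph.cut, MultiGraph.cutIn, Finset.mem_filter, Finset.mem_univ,
        true_and] at he
      obtain ⟨u, v, huv, hu, hv⟩ := he
      refine ⟨(u, v), by simp [hu, hv], ?_⟩
      exact Subtype.ext huv.symm
  rw [h, Finset.card_product, Finset.card_compl]

theorem edgeConnected_completeMG : (completeMG V).EdgeConnected (Fintype.card V - 1) := by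
  intro S hne huniv
  rw [card_cut_completeMG]
  have h1 : 1 ≤ S.card := Finset.card_pos.2 hne
  have h2 : S.card < Fintype.card V := by
    rw [← Finset.card_univ]
    exact Finset.card_lt_card (Finset.ssubset_univ_iff.2 huniv)
  obtain ⟨a, ha⟩ : ∃ a, S.card = a + 1 := ⟨S.card - 1, by omega⟩
  obtain ⟨b, hb⟩ : ∃ b, Fintype.card V = S.card + (b + 1) :=
    ⟨Fintype.card V - S.card - 1, by omega⟩
  rw [hb, ha]
  have : a + 1 + (b + 1) - (a + 1) = b + 1 := by omega
  rw [this]
  have : a + 1 + (b + 1) - 1 = a + b + 1 := by omega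
  rw [this]
  nlinarith

theorem thin_completeMG_lower (hV : 2 ≤ Fintype.card V)
    {T : Finset {z : Sym2 V // ¬ z.IsDiag}} {α : ℝ}
    (hT : (completeMG V).IsSpanningTree T) (hα : (completeMG V).IsThin T α) :
    4 * ((Fintype.card V : ℝ) - 1) / (Fintype.card V : ℝ) ^ 2 ≤ α := by
  obtain ⟨S, h1, h2, h3⟩ := hα.exists_cut hT hV
  rw [card_cut_completeMG] at h3
  have hle : S.card ≤ Fintype.card V := by
    rw [← Finset.card_univ]; exact Finset.card_le_card (Finset.subset_univ _)
  have hn : (2 : ℝ) ≤ (Fintype.card V : ℝ) := by exact_mod_cast hV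
  push_cast [Nat.cast_sub hle] at h3
  have hle' : (S.card : ℝ) ≤ (Fintype.card V : ℝ) := by exact_mod_cast hle
  set n : ℝ := (Fintype.card V : ℝ) with hn_def
  set s : ℝ := (S.card : ℝ) with hs_def
  have hprod : s * (n - s) ≤ n ^ 2 / 4 := by nlinarith [sq_nonneg (n - 2 * s)]
  have hαpos : 0 < α := by
    by_contra hneg
    rw [not_lt] at hneg
    have hs0 : 0 ≤ s * (n - s) := by
      apply mul_nonneg (Nat.cast_nonneg _)
      linarith
    nlinarith
  have : n - 1 ≤ α * (n ^ 2 / 4) := le_trans h3 (mul_le_mul_of_nonneg_left hprod hαpos.le)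
  rw [div_le_iff₀ (by positivity)]
  nlinarith

end Vale.Agent.P061
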