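import Mathlib

/-!
# Multigraphs, cuts, spanning trees and thinness (problem P061)

Finite loopless multigraphs are modelled by a vertex type `V`, a type `E` of edge copies and a map
sending every edge copy to its unordered pair of (distinct) endpoints.
-/

namespace Vale.Agent.P061

open Classical

/-- A loopless multigraph with vertex type `V` and edge-copy type `E`. -/
structure MultiGraph (V E : Type) where
  /-- the unordered pair of endpoints of an edge copy -/
  ends : E → Sym2 V
  /-- no loops -/
  loopless : ∀ e, ¬ (ends e).IsDiag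

variable {V E : Type}

/-- The edge copy `e` has exactly one endpoint in `S`. -/
def MultiGraph.Crosses (G : MultiGraph V E) (S : Finset V) (e : E) : Prop :=
  ∃ u v, G.ends e = s(u, v) ∧ u ∈ S ∧ v ∉ S

/-- `δ_T(S)`: the edge copies of `T` with exactly one endpoint in `S`. -/
noncomputable def MultiGraph.cutIn (G : MultiGraph V E) (T : Finset E) (S : Finset V) : Finset E :=
  T.filter (fun e => G.Crosses S e)

/-- `δ_G(S)`: all edge copies with exactly one endpoint in `S`. -/
noncomputable def MultiGraph.cut [Fintype E] (G : MultiGraph V E) (S : Finset V) : Finset E :=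
  G.cutIn Finset.univ S

/-- `G` is `k`-edge-connected: every nonempty proper vertex set has at least `k` crossing copies. -/
def MultiGraph.EdgeConnected [Fintype V] [Fintype E] (G : MultiGraph V E) (k : ℕ) : Prop :=
  ∀ S : Finset V, S.Nonempty → S ≠ Finset.univ → k ≤ (G.cut S).card

/-- The simple graph on `V` whose edges are the endpoint pairs of the copies in `T`. -/
def MultiGraph.graphOf (G : MultiGraph V E) (T : Finset E) : SimpleGraph V where
  Adj u v := ∃ e ∈ T, G.ends e = s(u, v)
  symm := ⟨by
    intro u v ⟨e, he, h⟩
    exact ⟨e, he, by rw [h, Sym2.eq_swap]⟩⟩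
  loopless := ⟨by
    intro u ⟨e, _, h⟩
    exact G.loopless e (by rw [h]; exact Sym2.mk_isDiag_iff.2 rfl)⟩

/-- `T` is a spanning tree: `n - 1` edge copies that connect all of `V`. -/
def MultiGraph.IsSpanningTree [Fintype V] (G : MultiGraph V E) (T : Finset E) : Prop :=
  T.card + 1 = Fintype.card V ∧ (G.graphOf T).Connected

/-- `T` is `α`-thin: `|δ_T(S)| ≤ α |δ_G(S)|` for every nonempty proper `S`. -/
def MultiGraph.IsThin [Fintype V] [Fintype E] (G : MultiGraph V E) (T : Finset E) (α : ℝ) : Prop :=
  ∀ S : Finset V, S.Nonempty → S ≠ Finset.univ →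
    ((G.cutIn T S).card : ℝ) ≤ α * ((G.cut S).card : ℝ)

end Vale.Agent.P061
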